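import Vale.Agent.H32.P119.Final

/-!
P119 (Boltzmann-Grad limit beyond short times).  The special case of the potential `Φ = 0`
(particles that do not interact): propagation of chaos for the exclusion grand canonical law
under the free flow, for all times, with an explicit rate.
-/

open MeasureTheory
open scoped ENNReal

namespace Vale.Agent.Results.P119.A_FreeGasChaos

open Vale.Agent.H32.P119

/-- Let `f0 ≥ 0` be a measurable probability density on `ℝ^3 × ℝ^3` whose spatial density
`∫ f0 (x, v) dv` is bounded by `C`, let `ε > 0` and `μ = ε^(-2)`.  Start `N` particles from the grand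
canonical law with weights `μ^N / N!` times `1{|x_i - x_j| > ε for all i ≠ j} ∏ f0 (z_i)` and move them by
the free flow `S_t (x, v) = (x + t v, v)` (Newton's equations for the potential `Φ = 0`).  Then for
every `s`, every real time `t` and every measurable test function `a` with values in `[0, 1]` the
rescaled `s`-particle factorial marginal `M_t(a) = μ^(-s) E ∑ a (S_t z_{i_1}, …, S_t z_{i_s})`
(sum over ordered tuples of distinct particles) satisfies

`M_t(a) ≤ ∫ a ∏_k f0 (S_(-t) z_k) dz ≤ M_t(a) + C |B_1| (s ε + s^2 ε^3)`,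

where `|B_1|` is the volume of the unit ball of `ℝ^3`. -/
theorem result (f0 : Ph → ℝ≥0∞) (hf : Measurable f0) (hint : ∫⁻ z, f0 z = 1)
    (C : ℝ≥0∞) (hρ : ∀ x : E3, ∫⁻ v : E3, f0 (x, v) ≤ C)
    (s : ℕ) (ε : ℝ) (hε : 0 < ε) (t : ℝ)
    (a : (Fin s → Ph) → ℝ≥0∞) (ha : Measurable a) (ha1 : ∀ z, a z ≤ 1) :
    marginal f0 ε s t a ≤ ∫⁻ z : Fin s → Ph, a z * ∏ k, f0 (flow (-t) (z k)) ∧
    ∫⁻ z : Fin s → Ph, a z * ∏ k, f0 (flow (-t) (z k)) ≤ marginal f0 ε s t a
      + C * volume (Metric.closedBall (0 : E3) 1) *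
          ((s : ℝ≥0∞) * ENNReal.ofReal ε + (s : ℝ≥0∞) ^ 2 * ENNReal.ofReal (ε ^ 3)) :=
  final_statement f0 hf hint C hρ s ε hε t a ha ha1

end Vale.Agent.Results.P119.A_FreeGasChaos
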