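import Vale.Agent.H32.P119.Density

/-!
P119 (Boltzmann-Grad limit beyond short times).  The special case of the potential `Φ = 0`
(particles that do not interact), in the terms of the problem: the rescaled factorial marginal of
the exclusion grand canonical law under the free flow has a density, the density lies below the
product `∏ f0 ∘ S_(-t)`, and its `L^1` distance from this product is at most
`C |B_1| (s ε + s^2 ε^3)`, for every time.
-/

open MeasureTheory
open scoped ENNReal

namespace Vale.Agent.Results.P119.B_FreeGasDensityL1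

open Vale.Agent.H32.P119

/-- Let `f0 ≥ 0` be a measurable probability density on `ℝ^3 × ℝ^3` whose spatial density
`∫ f0 (x, v) dv` is bounded by `C`, let `ε > 0` and `μ = ε^(-2)`; initial law: the grand canonical
law with weights `μ^N / N!` times `1{|x_i - x_j| > ε for all i ≠ j} ∏ f0 (z_i)`; dynamics: the free
flow `S_t (x, v) = (x + t v, v)`.  For every `s` and every real time `t` there is a measurable
density `F` of `s` particles such that

* `μ^(-s) E ∑ a (S_t z_{i_1}, …, S_t z_{i_s}) = ∫ a F` for every measurable `a ≥ 0` (sum over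
  ordered tuples of distinct particles), so `F` is the rescaled `s`-particle factorial marginal at
  time `t`;
* `F ≤ ∏_k f0 (S_(-t) z_k)` almost everywhere;
* the `L^1` distance `∫ |∏_k f0 (S_(-t) z_k) - F| dz` (written with the two truncated differences)
  is at most `C |B_1| (s ε + s^2 ε^3)`, `|B_1|` the volume of the unit ball of `ℝ^3`. -/
theorem result (f0 : Ph → ℝ≥0∞) (hf : Measurable f0) (hint : ∫⁻ z, f0 z = 1)
    (C : ℝ≥0∞) (hρ : ∀ x : E3, ∫⁻ v : E3, f0 (x, v) ≤ C)
    (s : ℕ) (ε : ℝ) (hε : 0 < ε) (t : ℝ) :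
    ∃ F : (Fin s → Ph) → ℝ≥0∞, Measurable F ∧
      (∀ a : (Fin s → Ph) → ℝ≥0∞, Measurable a →
        marginal f0 ε s t a = ∫⁻ z : Fin s → Ph, a z * F z) ∧
      (∀ᵐ z : Fin s → Ph, F z ≤ ∏ k, f0 (flow (-t) (z k))) ∧
      ∫⁻ z : Fin s → Ph, ((∏ k, f0 (flow (-t) (z k)) - F z) + (F z - ∏ k, f0 (flow (-t) (z k))))
        ≤ C * volume (Metric.closedBall (0 : E3) 1) *
          ((s : ℝ≥0∞) * ENNReal.ofReal ε + (s : ℝ≥0∞) ^ 2 * ENNReal.ofReal (ε ^ 3)) :=
  density_statement f0 hf hint C hρ s ε hε t

end Vale.Agent.Results.P119.B_FreeGasDensityL1
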